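import Vale.Agent.H67.P125.Cube

/-!
# P125: small Markov type constant implies J-convexity

If a real normed space `X` has Markov type `p` with constant `K` and `K ^ p < 2 ^ (p - 1)`, then
there are `n ≥ 2` and `ε > 0` such that for all `x_1, ..., x_n` in the unit ball one of the James
sums `x_1 + ... + x_k - x_(k+1) - ... - x_n` has norm at most `n (1 - ε)`.

The proof uses `Vale.Agent.H67.P125.cube_ineq` (Markov type at time two on the walk on the cube)
and the triangle inequality.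
-/

namespace Vale.Agent.H35.P125

open Finset

open Vale.Agent.H34.P125 (MarkovType)

variable {X : Type*} [NormedAddCommGroup X] [NormedSpace ℝ X]

omit [NormedSpace ℝ X] in
/-- The norm of a sum of vectors of norm at most one is at most the norm of the sum of two of
them plus the number of the others. -/
theorem jc_sum_le {m : ℕ} (y : Fin (m + 2) → X) (hy : ∀ l, ‖y l‖ ≤ 1) {i j : Fin (m + 2)}
    (hij : i ≠ j) : ‖∑ l, y l‖ ≤ ‖y i + y j‖ + (m : ℝ) := by
  have h1 : ∑ l, y l = (y i + y j) + ∑ l ∈ (univ.erase i).erase j, y l := by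
    rw [← add_sum_erase univ y (mem_univ i),
      ← add_sum_erase (univ.erase i) y (mem_erase.mpr ⟨hij.symm, mem_univ j⟩), add_assoc]
  have hc : ((univ.erase i).erase j : Finset (Fin (m + 2))).card = m := by
    rw [card_erase_of_mem (mem_erase.mpr ⟨hij.symm, mem_univ j⟩), card_erase_of_mem (mem_univ i),
      card_univ, Fintype.card_fin]
    rfl
  rw [h1]
  refine (norm_add_le _ _).trans (add_le_add le_rfl ?_)
  calc ‖∑ l ∈ (univ.erase i).erase j, y l‖
      ≤ ∑ l ∈ (univ.erase i).erase j, ‖y l‖ := norm_sum_le _ _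
    _ ≤ ∑ _l ∈ (univ.erase i).erase j, (1 : ℝ) := sum_le_sum (fun l _ => hy l)
    _ = (m : ℝ) := by rw [sum_const, hc, nsmul_eq_mul, mul_one]

omit [NormedSpace ℝ X] in
/-- If all James sums of `x` are longer than `c`, then all sums and differences of two of the
vectors are longer than `c - m` (here `n = m + 2`). -/
theorem jc_pair {m : ℕ} (x : Fin (m + 2) → X) (hx : ∀ i, ‖x i‖ ≤ 1) (c : ℝ)
    (hc : ∀ k : Fin (m + 2), c < ‖∑ i, (if i ≤ k then x i else -x i)‖) {i j : Fin (m + 2)}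
    (hij : i < j) : c - m < ‖x i + x j‖ ∧ c - m < ‖x i - x j‖ := by
  have hy : ∀ k l : Fin (m + 2), ‖(if l ≤ k then x l else -x l)‖ ≤ 1 := by
    intro k l
    split_ifs
    · exact hx l
    · rw [norm_neg]
      exact hx l
  constructor
  · have h := jc_sum_le (fun l => if l ≤ Fin.last (m + 1) then x l else -x l)
      (hy (Fin.last (m + 1))) hij.ne
    have h2 := hc (Fin.last (m + 1))
    simp only [Fin.le_last, if_true] at h h2
    linarith
  · have h := jc_sum_le (fun l => if l ≤ i then x l else -x l) (hy i) hij.ne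
    have h2 := hc i
    have hji : ¬ j ≤ i := not_le.mpr hij
    simp only [le_refl, if_true, hji, if_false] at h
    rw [← sub_eq_add_neg] at h
    linarith

/-- The sum of a constant over the ordered pairs of different indices. -/
theorem jc_offdiag (m : ℕ) (c : ℝ) :
    ∑ i : Fin (m + 2), ∑ j : Fin (m + 2), (if i = j then 0 else c) =
      c * (((m : ℝ) + 2) * ((m : ℝ) + 2 - 1)) := by
  have h1 : ∀ i : Fin (m + 2), ∑ j : Fin (m + 2), (if i = j then 0 else c) =
      c * ((m : ℝ) + 2 - 1) := by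
    intro i
    have h2 : ∀ j : Fin (m + 2), (if i = j then 0 else c) = c - (if i = j then c else 0) := by
      intro j
      split_ifs <;> ring
    rw [sum_congr rfl (fun j _ => h2 j), sum_sub_distrib, sum_const, sum_ite_eq, card_univ,
      Fintype.card_fin]
    simp only [mem_univ, if_true, nsmul_eq_mul]
    push_cast
    ring
  rw [sum_congr rfl (fun i _ => h1 i), sum_const, card_univ, Fintype.card_fin, nsmul_eq_mul]
  push_cast
  ring

/-- Markov type `p` with constant `K`, `K ^ p < 2 ^ (p - 1)`, implies J-convexity. -/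
theorem jconvex_of_markovType {p K : ℝ} (hp : 0 < p) (hK : 0 < K) (h : MarkovType X p K)
    (hlt : K ^ p < 2 ^ (p - 1)) :
    ∃ n : ℕ, 2 ≤ n ∧ ∃ ε : ℝ, 0 < ε ∧ ∀ x : Fin n → X, (∀ i, ‖x i‖ ≤ 1) →
      ∃ k : Fin n, ‖∑ i, (if i ≤ k then x i else -x i)‖ ≤ (n : ℝ) * (1 - ε) := by
  have hA0 : 0 < K ^ p := Real.rpow_pos_of_pos hK p
  have h2p : (2 : ℝ) ^ p = 2 * (2 : ℝ) ^ (p - 1) := by
    rw [Real.rpow_sub_one (by norm_num)]
    ring
  obtain ⟨A, hA⟩ : ∃ A : ℝ, A = K ^ p := ⟨_, rfl⟩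
  obtain ⟨B, hB⟩ : ∃ B : ℝ, B = (2 : ℝ) ^ (p - 1) := ⟨_, rfl⟩
  rw [← hA] at hA0 hlt
  rw [← hB] at hlt h2p
  have hBA : 0 < B - A := by linarith
  obtain ⟨m, hm⟩ := exists_nat_gt (B / (B - A))
  obtain ⟨n, hn⟩ : ∃ n : ℝ, n = (m : ℝ) + 2 := ⟨_, rfl⟩
  have hm0 : (0 : ℝ) ≤ (m : ℝ) := Nat.cast_nonneg m
  have hn2 : 2 ≤ n := by linarith
  have hn1 : B < n * (B - A) := by
    have h3 : B / (B - A) < n := by linarith
    rwa [div_lt_iff₀ hBA] at h3
  have hnpos : 0 < n - 1 := by linarith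
  obtain ⟨r, hr⟩ : ∃ r : ℝ, r = 2 * n * A / (n - 1) := ⟨_, rfl⟩
  have hr_lt : r < 2 ^ p := by
    rw [hr, div_lt_iff₀ hnpos, h2p]
    nlinarith
  have hr0 : 0 < r := by
    rw [hr]
    positivity
  obtain ⟨r', hr'⟩ : ∃ r' : ℝ, r' = (r + 2 ^ p) / 2 := ⟨_, rfl⟩
  have hr'1 : r < r' := by linarith
  have hr'2 : r' < 2 ^ p := by linarith
  have hr'0 : 0 < r' := by linarith
  obtain ⟨t0, ht0⟩ : ∃ t0 : ℝ, t0 = r' ^ (1 / p) := ⟨_, rfl⟩
  have ht0p : t0 ^ p = r' := by
    rw [ht0, ← Real.rpow_mul hr'0.le, one_div, inv_mul_cancel₀ hp.ne', Real.rpow_one]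
  have ht0pos : 0 < t0 := by
    rw [ht0]
    exact Real.rpow_pos_of_pos hr'0 _
  have ht0lt : t0 < 2 := by
    by_contra hcon
    have hcon' : (2 : ℝ) ≤ t0 := not_lt.mp hcon
    have h4 := Real.rpow_le_rpow (by norm_num) hcon' hp.le
    rw [ht0p] at h4
    linarith
  have hε : 0 < (2 - t0) / n := by
    apply div_pos <;> linarith
  refine ⟨m + 2, by omega, (2 - t0) / n, hε, ?_⟩
  intro x hx
  by_contra hcon
  have hcon' : ∀ k : Fin (m + 2),
      ((m + 2 : ℕ) : ℝ) * (1 - (2 - t0) / n) < ‖∑ i, (if i ≤ k then x i else -x i)‖ := by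
    intro k
    by_contra hk
    exact hcon ⟨k, not_lt.mp hk⟩
  have hc : ∀ k : Fin (m + 2), (m : ℝ) + t0 < ‖∑ i, (if i ≤ k then x i else -x i)‖ := by
    intro k
    have h5 := hcon' k
    have e : ((m + 2 : ℕ) : ℝ) * (1 - (2 - t0) / n) = (m : ℝ) + t0 := by
      have hn0 : n ≠ 0 := by linarith
      push_cast
      rw [← hn]
      field_simp
      rw [hn]
      ring
    rwa [e] at h5
  have hpair : ∀ i j : Fin (m + 2), i ≠ j →
      r' ≤ ‖x i + x j‖ ^ p ∧ r' ≤ ‖x i - x j‖ ^ p := by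
    intro i j hij
    have key : t0 < ‖x i + x j‖ ∧ t0 < ‖x i - x j‖ := by
      rcases lt_or_gt_of_ne hij with hlt' | hlt'
      · have h6 := jc_pair x hx _ hc hlt'
        constructor
        · linarith [h6.1]
        · linarith [h6.2]
      · have h6 := jc_pair x hx _ hc hlt'
        rw [add_comm (x j) (x i), norm_sub_rev] at h6
        constructor
        · linarith [h6.1]
        · linarith [h6.2]
    rw [← ht0p]
    exact ⟨Real.rpow_le_rpow ht0pos.le key.1.le hp.le, Real.rpow_le_rpow ht0pos.le key.2.le hp.le⟩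
  have hcube := Vale.Agent.H67.P125.cube_ineq hp h x
  rw [← hA] at hcube
  have hL : (2 * r') * (n * (n - 1)) ≤
      ∑ i, ∑ j, (if i = j then 0 else ‖x i + x j‖ ^ p + ‖x i - x j‖ ^ p) := by
    rw [hn, ← jc_offdiag m (2 * r')]
    refine sum_le_sum (fun i _ => sum_le_sum (fun j _ => ?_))
    split_ifs with hij
    · exact le_rfl
    · have h7 := hpair i j hij
      linarith [h7.1, h7.2]
  have hR : 4 * A * (Fintype.card (Fin (m + 2)) : ℝ) * ∑ i, ‖x i‖ ^ p ≤ 4 * A * n * n := by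
    have h8 : ∑ i, ‖x i‖ ^ p ≤ n := by
      calc ∑ i, ‖x i‖ ^ p ≤ ∑ _i : Fin (m + 2), (1 : ℝ) :=
            sum_le_sum (fun i _ => Real.rpow_le_one (norm_nonneg _) (hx i) hp.le)
        _ = n := by
            rw [sum_const, card_univ, Fintype.card_fin, nsmul_eq_mul, mul_one, hn]
            push_cast
            ring
    have h9 : (Fintype.card (Fin (m + 2)) : ℝ) = n := by
      rw [Fintype.card_fin, hn]
      push_cast
      ring
    rw [h9]
    have h10 : 0 ≤ 4 * A * n := by positivity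
    exact mul_le_mul_of_nonneg_left h8 h10
  have e2 : (2 * r) * (n * (n - 1)) = 4 * A * n * n := by
    have hn0 : n - 1 ≠ 0 := hnpos.ne'
    rw [hr]
    field_simp
    ring
  have h11 : (2 * r) * (n * (n - 1)) < (2 * r') * (n * (n - 1)) := by
    have h12 : 0 < n * (n - 1) := by positivity
    nlinarith
  linarith

end Vale.Agent.H35.P125
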